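import Vale.Agent.P032.H416.Props
import Vale.Agent.P032.S5.H678.Face
import Vale.Agent.P032.S5.H824.Two
import Vale.Agent.P032.S5.H767.Pts

/-!
# P032: contacts of circles with complementary faces

Wild frame `Irr U T`; no cleanness, no local finiteness, any order of the contact points.

* `two_of_full` : if near the common point `p` of `S(u)` and `S(v)` the circle `S(u)` is never inside
  `s'`, and `s ∪ s'` is everything, `s ⊆ T v`, then `T p` has two colours of `s`.
* `comp_far` : (C3) three-points with complementary palettes have distance at least two, if the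
  points of order at least four on both circles are no complementary corners.
* `contact_cd` : (CV) `V` a two-pair point with the pairs `ab | cd`, `T u` the complement of
  `{a, b, d}`: a common point of `S(u)` and `S(V)` is in the closure of the exact `ab`-arcs of
  `S(V)`, or it has two colours of `T u` and two of `{a, b, d}`.
* `lens_sub` : the lens of two unit discs is contained in every unit disc which contains its corners.
* `face_out` : (CV), end form: a point `x` in both discs is in every unit disc which contains the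
  closure of the exact `ab`-arcs.
-/

open Set Filter Topology Metric

noncomputable section

namespace Vale.Agent.P032.H227

open Vale.Agent.P032.Six Vale.Agent.P032.S5.H767

variable {U : Fin 6 → Set ℂ} {T : ℂ → Set (Fin 6)}

/-- two colours of `s` at a common point -/
theorem two_of_full (h : Irr U T) {u v p : ℂ} (hu : dist p u = 1) (hv : dist p v = 1)
    (hne : v ≠ u) (hne2 : v + u ≠ 2 * p) {s s' : Set (Fin 6)} (hs : s ⊆ T v)
    (hcov : ∀ i, i ∈ s ∨ i ∈ s') (hfull : ∀ᶠ y in 𝓝[sphere u 1] p, ¬ T y ⊆ s') :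
    2 ≤ (T p ∩ s).ncard := by
  have hp : p ∈ sphere u 1 := hu
  have h0 : ∃ t, t ∈ T p ∧ t ∈ s := by
    have h1 := hfull.self_of_nhdsWithin hp
    by_contra hcon
    push Not at hcon
    exact h1 fun i hi => (hcov i).resolve_left (hcon i hi)
  obtain ⟨t, htp, hts⟩ := h0
  by_contra hlt
  push Not at hlt
  have h1 : ∀ i, i ∈ T p → i ∈ s → i = t := by
    intro i hi his
    have h2 : (T p ∩ s).ncard ≤ 1 := by omega
    exact (Set.ncard_le_one (Set.toFinite _)).1 h2 i ⟨hi, his⟩ t ⟨htp, hts⟩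
  refine h.not_eventually hu hv hne hne2 (hs hts) ?_
  filter_upwards [hfull, mem_nhdsWithin_of_mem_nhds (h.nhd p)] with y h2 h3
  by_contra hty
  refine h2 fun i hi => (hcov i).resolve_left fun his => ?_
  have h4 : i = t := h1 i (h3 hi) his
  exact hty (h4 ▸ hi)

/-- (C3) **complementary three-points are far** -/
theorem comp_far (h : Irr U T) {u w : ℂ} (h3 : (T u).ncard ≤ 3) (h3' : (T w).ncard ≤ 3)
    (hw : T w = (T u)ᶜ)
    (hno : ∀ q, dist u q = 1 → dist w q = 1 → 4 ≤ (T q).ncard → u + w = 2 * q) :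
    2 ≤ dist u w := by
  by_contra hlt
  push Not at hlt
  have hne : u ≠ w := by
    rintro rfl
    obtain ⟨i, hi⟩ := h.ne u
    have h1 := hw ▸ hi
    exact h1 hi
  obtain ⟨q, hq, hq', hne2⟩ := l2_exists_inter hlt hne
  have F := h.fc_three h3
  have F' : Fc T w (T u)ᶜ := hw ▸ h.fc_three h3'
  have h4 := Fc.four_le' h F F' hne hq hq' hne2
  exact hne2 (hno q (by rw [dist_comm]; exact hq) (by rw [dist_comm]; exact hq') h4)

/-- (C3) with `NoComp` -/
theorem comp_far' (h : Irr U T) (hN : NoComp T) {u w : ℂ} (h3 : (T u).ncard = 3)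
    (hw : T w = (T u)ᶜ) (h4 : ∀ q, dist u q = 1 → dist w q = 1 → (T q).ncard ≤ 4) :
    2 ≤ dist u w := by
  have h3' : (T w).ncard = 3 := by
    have h1 := Set.ncard_add_ncard_compl (T u)
    rw [hw]
    have h2 : Nat.card (Fin 6) = 6 := by simp
    omega
  refine comp_far h h3.le h3'.le hw fun q hq hq' hq4 => ?_
  exact hN q (le_antisymm (h4 q hq hq') hq4) u w hq hq' h3 hw

/-- (CV) **contacts of a three-point with a two-pair point** -/
theorem contact_cd (h : Irr U T) {u V p : ℂ} {a b c d : Fin 6} (hV : DPt T V a b c d)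
    (h3 : (T u).ncard ≤ 3) (hu : T u = ({a, b, d} : Set (Fin 6))ᶜ) (hpu : dist p u = 1)
    (hpV : dist p V = 1) (hne2 : u + V ≠ 2 * p) :
    p ∈ closure (Ex T V {a, b}) ∨
      (2 ≤ (T p ∩ T u).ncard ∧ 2 ≤ (T p ∩ (T u)ᶜ).ncard) := by
  by_cases hp : p ∈ closure (Ex T V {a, b})
  · exact Or.inl hp
  right
  have hne : u ≠ V := by
    rintro rfl
    have h1 : a ∈ T u := by rw [hV.pal]; simp
    rw [hu] at h1
    exact h1 (by simp)
  have hcomp : (T u)ᶜ = {a, b, d} := by rw [hu, compl_compl]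
  have F := h.fc_three h3
  refine ⟨?_, ?_⟩
  · -- near `p` the circle about `V` is never inside `{a, b, d}`
    refine two_of_full h hpV hpu hne (by exact hne2) (s' := {a, b, d}) Subset.rfl
      (fun i => by rw [hu]; exact (em (i ∈ ({a, b, d} : Set (Fin 6)))).symm) ?_
    have hev : ∀ᶠ y in 𝓝[sphere V 1] p, ∀ᶠ q in 𝓝 y, q ∉ closure (Ex T V {a, b}) := by
      have h1 : IsOpen (closure (Ex T V {a, b}))ᶜ := isClosed_closure.isOpen_compl
      filter_upwards [mem_nhdsWithin_of_mem_nhds (h1.mem_nhds hp)] with y hy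
      exact h1.mem_nhds hy
    filter_upwards [hev, self_mem_nhdsWithin] with y hy hyV hsub
    have hyV : dist y V = 1 := hyV
    have hsubV : T y ⊆ T V := by
      rw [hV.pal]
      intro i hi
      rcases hsub hi with h1 | h1 | h1
      · exact Or.inl h1
      · exact Or.inr (Or.inl h1)
      · exact Or.inr (Or.inr (Or.inr h1))
    obtain ⟨q, hq, hqV, hloc, hqy, -, -⟩ := h.arc_of_sub hyV hsubV (V := {q | q ∉ closure
      (Ex T V {a, b})}) hy
    rcases h.twoPairs hV q hqV hloc (hqy.trans hsubV) with h1 | h1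
    · refine hq (subset_closure ⟨hqV, ?_⟩)
      exact hloc.mono fun q' h2 => h2.trans h1
    · have h2 : c ∈ T q := by rw [h1]; simp
      rcases hsub (hqy h2) with h3 | h3 | h3
      · exact hV.ac h3.symm
      · exact hV.bc h3.symm
      · exact hV.cd h3
  · -- the circle about `u`
    rw [hcomp]
    refine two_of_full h hpu hpV hne.symm (by rw [add_comm]; exact hne2) (s' := T u) ?_
      (fun i => by rw [hu]; exact em _) ?_
    · rw [hV.pal]
      intro i hi
      rcases hi with h1 | h1 | h1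
      · exact Or.inl h1
      · exact Or.inr (Or.inl h1)
      · exact Or.inr (Or.inr (Or.inr h1))
    · filter_upwards [self_mem_nhdsWithin] with y hy hsub
      exact F.full y hy hsub

/-- (CV) at a contact of order at most three -/
theorem contact_three (h : Irr U T) {u V p : ℂ} {a b c d : Fin 6} (hV : DPt T V a b c d)
    (h3 : (T u).ncard ≤ 3) (hu : T u = ({a, b, d} : Set (Fin 6))ᶜ) (hpu : dist p u = 1)
    (hpV : dist p V = 1) (hne2 : u + V ≠ 2 * p) (hp3 : (T p).ncard ≤ 3) :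
    p ∈ closure (Ex T V {a, b}) := by
  refine (contact_cd h hV h3 hu hpu hpV hne2).resolve_right fun ⟨h1, h2⟩ => ?_
  have h4 := Set.ncard_inter_add_ncard_sdiff_eq_ncard (T p) (T u) (Set.toFinite _)
  rw [Set.sdiff_eq] at h4
  omega

/-! ### The lens -/

/-- real form -/
theorem lens_real {t ξ η ω ζ : ℝ} (h1 : ξ ^ 2 + (η - t) ^ 2 ≤ 1 + t ^ 2)
    (h2 : ξ ^ 2 + (η + t) ^ 2 ≤ 1 + t ^ 2) (h3 : (ω - 1) ^ 2 + ζ ^ 2 ≤ 1 + t ^ 2)
    (h4 : (ω + 1) ^ 2 + ζ ^ 2 ≤ 1 + t ^ 2) :
    (ξ - ω) ^ 2 + (η - ζ) ^ 2 ≤ 1 + t ^ 2 := by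
  have e1 : ξ ^ 2 + η ^ 2 + 2 * |t * η| ≤ 1 := by
    rcases abs_cases (t * η) with ⟨h, -⟩ | ⟨h, -⟩ <;> rw [h] <;> nlinarith
  have e2 : ω ^ 2 + ζ ^ 2 + 2 * |ω| ≤ t ^ 2 := by
    rcases abs_cases ω with ⟨h, -⟩ | ⟨h, -⟩ <;> rw [h] <;> nlinarith
  have hξ : |ξ| ≤ 1 := by
    rw [← sq_le_one_iff_abs_le_one]
    nlinarith [abs_nonneg (t * η), sq_nonneg η]
  have hζ : |ζ| ≤ |t| := by
    rw [← sq_le_sq]
    nlinarith [abs_nonneg ω, sq_nonneg ω]
  have e3 : -(ξ * ω) ≤ |ω| := by
    have := neg_abs_le (ξ * ω)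
    rw [abs_mul] at this
    nlinarith [abs_nonneg ω]
  have e4 : -(η * ζ) ≤ |t * η| := by
    have := neg_abs_le (η * ζ)
    rw [abs_mul] at this
    rw [abs_mul]
    nlinarith [abs_nonneg η]
  nlinarith

theorem lens_real_lt {t ξ η ω ζ : ℝ} (h1 : ξ ^ 2 + (η - t) ^ 2 < 1 + t ^ 2)
    (h2 : ξ ^ 2 + (η + t) ^ 2 < 1 + t ^ 2) (h3 : (ω - 1) ^ 2 + ζ ^ 2 ≤ 1 + t ^ 2)
    (h4 : (ω + 1) ^ 2 + ζ ^ 2 ≤ 1 + t ^ 2) :
    (ξ - ω) ^ 2 + (η - ζ) ^ 2 < 1 + t ^ 2 := by
  have e1 : ξ ^ 2 + η ^ 2 + 2 * |t * η| < 1 := by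
    rcases abs_cases (t * η) with ⟨h, -⟩ | ⟨h, -⟩ <;> rw [h] <;> nlinarith
  have e2 : ω ^ 2 + ζ ^ 2 + 2 * |ω| ≤ t ^ 2 := by
    rcases abs_cases ω with ⟨h, -⟩ | ⟨h, -⟩ <;> rw [h] <;> nlinarith
  have hξ : |ξ| ≤ 1 := by
    rw [← sq_le_one_iff_abs_le_one]
    nlinarith [abs_nonneg (t * η), sq_nonneg η]
  have hζ : |ζ| ≤ |t| := by
    rw [← sq_le_sq]
    nlinarith [abs_nonneg ω, sq_nonneg ω]
  have e3 : -(ξ * ω) ≤ |ω| := by
    have := neg_abs_le (ξ * ω)
    rw [abs_mul] at this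
    nlinarith [abs_nonneg ω]
  have e4 : -(η * ζ) ≤ |t * η| := by
    have := neg_abs_le (η * ζ)
    rw [abs_mul] at this
    rw [abs_mul]
    nlinarith [abs_nonneg η]
  nlinarith

theorem dist_le_one_iff {x y : ℂ} : dist x y ≤ 1 ↔ Complex.normSq (x - y) ≤ 1 := by
  rw [Complex.dist_eq, Complex.normSq_eq_norm_sq, sq_le_one_iff₀ (norm_nonneg _)]

theorem dist_lt_one_iff {x y : ℂ} : dist x y < 1 ↔ Complex.normSq (x - y) < 1 := by
  rw [Complex.dist_eq, Complex.normSq_eq_norm_sq, sq_lt_one_iff₀ (norm_nonneg _)]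

/-- coordinates of the rhombus `u, p, v, p'` -/
theorem lens_coord {u v p p' : ℂ} (hpu : dist p u = 1) (hpv : dist p v = 1)
    (hpu' : dist p' u = 1) (hpv' : dist p' v = 1) (hpp : p ≠ p') (huv : u ≠ v) :
    ∃ (m A : ℂ) (t : ℝ), A ≠ 0 ∧ p = m + A ∧ p' = m - A ∧ u = m + t * Complex.I * A ∧
      v = m - t * Complex.I * A ∧ Complex.normSq A * (1 + t ^ 2) = 1 := by
  have h2 := second_point huv hpu hpv hpu' hpv' hpp
  obtain ⟨m, hm⟩ : ∃ m, m = (u + v) / 2 := ⟨_, rfl⟩
  obtain ⟨A, hA⟩ : ∃ A, A = p - m := ⟨_, rfl⟩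
  obtain ⟨B, hB⟩ : ∃ B, B = u - m := ⟨_, rfl⟩
  have ep : p = m + A := by rw [hA]; ring
  have ep' : p' = m - A := by rw [hA, hm]; linear_combination h2
  have eu : u = m + B := by rw [hB]; ring
  have ev : v = m - B := by rw [hB, hm]; ring
  have hA0 : A ≠ 0 := by
    rintro rfl
    exact hpp (by rw [ep, ep']; ring)
  have e1 : Complex.normSq (A - B) = 1 := by
    have h3 : ‖A - B‖ = 1 := by
      rw [← hpu, Complex.dist_eq, ep, eu]
      congr 1; ring
    rw [Complex.normSq_eq_norm_sq, h3, one_pow]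
  have e2 : Complex.normSq (A + B) = 1 := by
    have h3 : ‖A + B‖ = 1 := by
      rw [← hpv, Complex.dist_eq, ep, ev]
      congr 1; ring
    rw [Complex.normSq_eq_norm_sq, h3, one_pow]
  have hN : 0 < Complex.normSq A := Complex.normSq_pos.2 hA0
  rw [Complex.normSq_sub] at e1
  rw [Complex.normSq_add] at e2
  have e3 : (A * (starRingEnd ℂ) B).re = 0 := by linarith
  have e4 : Complex.normSq A + Complex.normSq B = 1 := by linarith
  have e5 : (B / A).re = 0 := by
    rw [Complex.div_re]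
    simp only [Complex.mul_re, Complex.conj_re, Complex.conj_im] at e3
    field_simp
    linarith
  refine ⟨m, A, (B / A).im, hA0, ep, ep', ?_, ?_, ?_⟩
  · have e6 : B = ((B / A).im : ℂ) * Complex.I * A := by
      have e7 : B / A = ((B / A).im : ℂ) * Complex.I := by
        apply Complex.ext
        · simp [e5]
        · simp
      rw [← e7]; field_simp
    rw [← e6]; exact eu
  · have e6 : B = ((B / A).im : ℂ) * Complex.I * A := by
      have e7 : B / A = ((B / A).im : ℂ) * Complex.I := by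
        apply Complex.ext
        · simp [e5]
        · simp
      rw [← e7]; field_simp
    rw [← e6]; exact ev
  · have e8 : Complex.normSq (B / A) = (B / A).im ^ 2 := by
      rw [Complex.normSq_apply, e5]; ring
    rw [← e8, Complex.normSq_div]
    field_simp
    exact e4

theorem ns1 (r : ℂ) (t : ℝ) :
    Complex.normSq (r - t * Complex.I) = r.re ^ 2 + (r.im - t) ^ 2 := by
  rw [Complex.normSq_apply]; simp; ring

theorem ns2 (r : ℂ) (t : ℝ) :
    Complex.normSq (r + t * Complex.I) = r.re ^ 2 + (r.im + t) ^ 2 := by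
  rw [Complex.normSq_apply]; simp; ring

theorem ns3 (s : ℂ) : Complex.normSq (s - 1) = (s.re - 1) ^ 2 + s.im ^ 2 := by
  rw [Complex.normSq_apply]; simp; ring

theorem ns4 (s : ℂ) : Complex.normSq (s + 1) = (s.re + 1) ^ 2 + s.im ^ 2 := by
  rw [Complex.normSq_apply]; simp; ring

theorem ns5 (r s : ℂ) :
    Complex.normSq (r - s) = (r.re - s.re) ^ 2 + (r.im - s.im) ^ 2 := by
  rw [Complex.normSq_apply]; simp; ring

theorem key_le {A : ℂ} {t : ℝ} (hA2 : 0 < Complex.normSq A)
    (hN : Complex.normSq A * (1 + t ^ 2) = 1) (w : ℂ) :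
    Complex.normSq (w * A) ≤ 1 ↔ Complex.normSq w ≤ 1 + t ^ 2 := by
  rw [Complex.normSq_mul, mul_comm]
  constructor
  · intro h1
    refine le_of_mul_le_mul_left ?_ hA2
    rw [hN]; exact h1
  · intro h1
    have h2 := mul_le_mul_of_nonneg_left h1 hA2.le
    rwa [hN] at h2

theorem key_lt {A : ℂ} {t : ℝ} (hA2 : 0 < Complex.normSq A)
    (hN : Complex.normSq A * (1 + t ^ 2) = 1) (w : ℂ) :
    Complex.normSq (w * A) < 1 ↔ Complex.normSq w < 1 + t ^ 2 := by
  rw [Complex.normSq_mul, mul_comm]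
  constructor
  · intro h1
    refine lt_of_mul_lt_mul_left ?_ hA2.le
    rw [hN]; exact h1
  · intro h1
    have h2 := mul_lt_mul_of_pos_left h1 hA2
    rwa [hN] at h2

/-- **the lens is contained in every unit disc which contains its corners** -/
theorem lens_sub {u v p p' o x : ℂ} (hpu : dist p u = 1) (hpv : dist p v = 1)
    (hpu' : dist p' u = 1) (hpv' : dist p' v = 1) (hpp : p ≠ p') (huv : u ≠ v)
    (ho : dist o p ≤ 1) (ho' : dist o p' ≤ 1) (hx : dist x u ≤ 1) (hx' : dist x v ≤ 1) :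
    dist x o ≤ 1 := by
  obtain ⟨m, A, t, hA, rfl, rfl, rfl, rfl, hN⟩ := lens_coord hpu hpv hpu' hpv' hpp huv
  have hA2 : 0 < Complex.normSq A := Complex.normSq_pos.2 hA
  obtain ⟨r, rfl⟩ : ∃ r, x = m + r * A := ⟨(x - m) / A, by field_simp; ring⟩
  obtain ⟨s, rfl⟩ : ∃ s, o = m + s * A := ⟨(o - m) / A, by field_simp; ring⟩
  have k1 := (key_le hA2 hN (r - t * Complex.I)).1 (by
    rw [show (r - t * Complex.I) * A = m + r * A - (m + t * Complex.I * A) by ring]
    exact dist_le_one_iff.1 hx)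
  have k2 := (key_le hA2 hN (r + t * Complex.I)).1 (by
    rw [show (r + t * Complex.I) * A = m + r * A - (m - t * Complex.I * A) by ring]
    exact dist_le_one_iff.1 hx')
  have k3 := (key_le hA2 hN (s - 1)).1 (by
    rw [show (s - 1) * A = m + s * A - (m + A) by ring]
    exact dist_le_one_iff.1 ho)
  have k4 := (key_le hA2 hN (s + 1)).1 (by
    rw [show (s + 1) * A = m + s * A - (m - A) by ring]
    exact dist_le_one_iff.1 ho')
  rw [dist_le_one_iff, show m + r * A - (m + s * A) = (r - s) * A by ring]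
  refine (key_le hA2 hN (r - s)).2 ?_
  rw [ns1] at k1
  rw [ns2] at k2
  rw [ns3] at k3
  rw [ns4] at k4
  rw [ns5]
  exact lens_real k1 k2 k3 k4

/-- the same, interior points -/
theorem lens_sub_lt {u v p p' o x : ℂ} (hpu : dist p u = 1) (hpv : dist p v = 1)
    (hpu' : dist p' u = 1) (hpv' : dist p' v = 1) (hpp : p ≠ p') (huv : u ≠ v)
    (ho : dist o p ≤ 1) (ho' : dist o p' ≤ 1) (hx : dist x u < 1) (hx' : dist x v < 1) :
    dist x o < 1 := by
  obtain ⟨m, A, t, hA, rfl, rfl, rfl, rfl, hN⟩ := lens_coord hpu hpv hpu' hpv' hpp huv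
  have hA2 : 0 < Complex.normSq A := Complex.normSq_pos.2 hA
  obtain ⟨r, rfl⟩ : ∃ r, x = m + r * A := ⟨(x - m) / A, by field_simp; ring⟩
  obtain ⟨s, rfl⟩ : ∃ s, o = m + s * A := ⟨(o - m) / A, by field_simp; ring⟩
  have k1 := (key_lt hA2 hN (r - t * Complex.I)).1 (by
    rw [show (r - t * Complex.I) * A = m + r * A - (m + t * Complex.I * A) by ring]
    exact dist_lt_one_iff.1 hx)
  have k2 := (key_lt hA2 hN (r + t * Complex.I)).1 (by
    rw [show (r + t * Complex.I) * A = m + r * A - (m - t * Complex.I * A) by ring]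
    exact dist_lt_one_iff.1 hx')
  have k3 := (key_le hA2 hN (s - 1)).1 (by
    rw [show (s - 1) * A = m + s * A - (m + A) by ring]
    exact dist_le_one_iff.1 ho)
  have k4 := (key_le hA2 hN (s + 1)).1 (by
    rw [show (s + 1) * A = m + s * A - (m - A) by ring]
    exact dist_le_one_iff.1 ho')
  rw [dist_lt_one_iff, show m + r * A - (m + s * A) = (r - s) * A by ring]
  refine (key_lt hA2 hN (r - s)).2 ?_
  rw [ns1] at k1
  rw [ns2] at k2
  rw [ns3] at k3
  rw [ns4] at k4
  rw [ns5]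
  exact lens_real_lt k1 k2 k3 k4

/-- the second common point of two unit circles -/
theorem exists_two {u v : ℂ} (h2 : dist u v < 2) (hne : u ≠ v) :
    ∃ p p', p ≠ p' ∧ dist p u = 1 ∧ dist p v = 1 ∧ dist p' u = 1 ∧ dist p' v = 1 ∧
      u + v ≠ 2 * p ∧ u + v ≠ 2 * p' := by
  obtain ⟨p, hp, hp', hne2⟩ := l2_exists_inter h2 hne
  refine ⟨p, u + v - p, fun e => hne2 (by linear_combination -e), hp, hp', ?_, ?_, hne2,
    fun e => hne2 (by linear_combination -e)⟩
  · rw [dist_eq_norm, show u + v - p - u = -(p - v) by ring, norm_neg, ← dist_eq_norm]; exact hp'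
  · rw [dist_eq_norm, show u + v - p - v = -(p - u) by ring, norm_neg, ← dist_eq_norm]; exact hp

/-- (CV), end form: `u` a three-point, `V` a two-pair point as in `contact_cd`, all contacts of order
at most three.  A point of both discs is in every unit disc which contains the closed exact
`ab`-arcs of `S(V)`. -/
theorem face_out (h : Irr U T) {u V o x : ℂ} {a b c d : Fin 6} (hV : DPt T V a b c d)
    (h3 : (T u).ncard ≤ 3) (hu : T u = ({a, b, d} : Set (Fin 6))ᶜ)
    (hcon : ∀ p, dist p u = 1 → dist p V = 1 → p ∈ closure (Ex T V {a, b}) ∨ (T p).ncard ≤ 3)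
    (ho : ∀ p ∈ closure (Ex T V {a, b}), dist o p ≤ 1) (hxu : dist x u ≤ 1)
    (hxV : dist x V ≤ 1) (hlt : dist u V < 2) : dist x o ≤ 1 := by
  have hne : u ≠ V := by
    rintro rfl
    have h1 : a ∈ T u := by rw [hV.pal]; simp
    rw [hu] at h1
    exact h1 (by simp)
  obtain ⟨p, p', hpp, h1, h2, h1', h2', e, e'⟩ := exists_two hlt hne
  have key : ∀ q, dist q u = 1 → dist q V = 1 → u + V ≠ 2 * q → dist o q ≤ 1 := by
    intro q g1 g2 g3
    refine ho q ?_
    rcases hcon q g1 g2 with h4 | h4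
    · exact h4
    · exact contact_three h hV h3 hu g1 g2 g3 h4
  exact lens_sub h1 h2 h1' h2' hpp hne (key p h1 h2 e) (key p' h1' h2' e') hxu hxV

/-- the same for interior points -/
theorem face_out_lt (h : Irr U T) {u V o x : ℂ} {a b c d : Fin 6} (hV : DPt T V a b c d)
    (h3 : (T u).ncard ≤ 3) (hu : T u = ({a, b, d} : Set (Fin 6))ᶜ)
    (hcon : ∀ p, dist p u = 1 → dist p V = 1 → p ∈ closure (Ex T V {a, b}) ∨ (T p).ncard ≤ 3)
    (ho : ∀ p ∈ closure (Ex T V {a, b}), dist o p ≤ 1) (hxu : dist x u < 1)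
    (hxV : dist x V < 1) : dist x o < 1 := by
  have hlt : dist u V < 2 := by
    have := dist_triangle u x V
    rw [dist_comm u x] at this
    linarith
  have hne : u ≠ V := by
    rintro rfl
    have h1 : a ∈ T u := by rw [hV.pal]; simp
    rw [hu] at h1
    exact h1 (by simp)
  obtain ⟨p, p', hpp, h1, h2, h1', h2', e, e'⟩ := exists_two hlt hne
  have key : ∀ q, dist q u = 1 → dist q V = 1 → u + V ≠ 2 * q → dist o q ≤ 1 := by
    intro q g1 g2 g3
    refine ho q ?_
    rcases hcon q g1 g2 with h4 | h4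
    · exact h4
    · exact contact_three h hV h3 hu g1 g2 g3 h4
  exact lens_sub_lt h1 h2 h1' h2' hpp hne (key p h1 h2 e) (key p' h1' h2' e') hxu hxV

end Vale.Agent.P032.H227
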