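import Vale.Agent.P032.Carr.LamT
import Vale.Agent.P032.S5.H11.Tab

/-!
# P032: the chain of a disc and the evenness law

`A` : a set of colours which can be avoided on the circle `S(x)` (three colours of a face `x`, two
colours of a border point, one colour).

* `Hm.exists_chain` : there is one chain `φ` of triples such that `φ s` is the state `lamH t x s` for
  all `t ∈ A ∩ s`, `φ s = 0` if there is no face `s` in the closed disc, and the boundary of `φ` at a
  pair `p` is `0` if `p` meets `A` and the number `W p` of `p`-changes of the circle otherwise.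
* `even_law` : for such a chain and a filling `g` of `W` by triples outside `A`:
  the sum over the triples `s` outside `A` of `g s * φ sᶜ` is the number of complementary pairs of `φ`.
* `Hm.even_face` : `A = {a, b, c}` with an odd circle: `lamH a x {a, b, c}` is the number mod 2 of
  complementary pairs of `φ`.
* `parity_at`, `even_of_no_pair`, ... : finite forms.
-/

noncomputable section

namespace Vale.Agent.P032.Carr

open Set Filter Topology Metric Vale.Agent.P032.S5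

variable {K : ℂ → Set (Fin 6)} {Z : Set ℂ} {f : ℂ → Set (Fin 6)} {δ δ₀ : ℝ} {x : ℂ} {a : Fin 6}

/-- **the chain of the disc**, for a cover with at most three colours -/
theorem exists_chainS {x : ℂ} (hK : Nice K x) {A : Set (Fin 6)}
    (hA : ∀ y, dist y x = 1 → ∃ t ∈ K y, t ∉ A) {W : Finset (Fin 6) → ZMod 2}
    (hW : ∀ p : Finset (Fin 6), p.card = 2 → (∀ t ∈ p, t ∉ A) → ∀ᶠ j : ℕ in atTop,
      ∀ h : ℕ → Fin 6, h (6 * 2 ^ j) = h 0 →
      (∀ k ≤ 6 * 2 ^ j, h k ∈ K (pt x j (2 ^ j) k) ∧ h k ∉ A) →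
        ∑ k ∈ Finset.range (6 * 2 ^ j), eps (h k) (h (k + 1)) p = W p) :
    ∃ φ : Finset (Fin 6) → ZMod 2,
      (∀ t ∈ A, ∀ s : Finset (Fin 6), t ∈ s → φ s = lamS K t x s) ∧
      (∀ s : Finset (Fin 6), (∀ u ∈ closedBall x 1, ∃ t ∈ s, t ∉ K u) → φ s = 0) ∧
      (∀ p : Finset (Fin 6), p.card = 2 → (∃ t ∈ p, t ∈ A) →
        ∑ l ∈ Finset.univ \ p, φ (insert l p) = 0) ∧
      (∀ p : Finset (Fin 6), p.card = 2 → (∀ t ∈ p, t ∉ A) →
        ∑ l ∈ Finset.univ \ p, φ (insert l p) = W p) := by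
  classical
  have hav : ∀ t ∈ A, Av K x t := fun t ht y hy =>
    (hA y hy).imp fun z hz => ⟨hz.1, fun h => hz.2 (h ▸ ht)⟩
  have h1 : ∀ᶠ δ in 𝓝[>] (0 : ℝ), ∀ t : Fin 6, t ∈ A → ∀ s : Finset (Fin 6), t ∈ s → ∀ j : ℕ,
      3 / 2 ^ j < δ → ∀ l, Lb K x δ j l → (∀ k ≤ 6 * 2 ^ j, l (2 ^ j) k ≠ t) →
        Ch l (2 ^ j) (6 * 2 ^ j) s = lamS K t x s := by
    rw [eventually_all]
    intro t
    rw [eventually_imp_distrib_left]
    intro ht
    exact lamS_all hK (hav t ht)
  obtain ⟨δ, hδ, hδ0⟩ := (h1.and self_mem_nhdsWithin).exists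
  have hδ0 : 0 < δ := hδ0
  obtain ⟨c₀, b₀, hc₀, hb₀⟩ := exists_sel hK.ne (x := x) (A := A) hA
  have hmesh : ∀ ε : ℝ, 0 < ε → ∀ᶠ j : ℕ in atTop, (3 : ℝ) / 2 ^ j < ε := fun ε hε =>
    (tendsto_order.1 tendsto_mesh).2 _ hε
  have h2 : ∀ᶠ j : ℕ in atTop, ∀ s : Finset (Fin 6),
      (∀ u ∈ closedBall x 1, ∃ t ∈ s, t ∉ K u) → Ch (sl x c₀ b₀ j) (2 ^ j) (6 * 2 ^ j) s = 0 := by
    rw [eventually_all]
    intro s
    rw [eventually_imp_distrib_left]
    intro hs
    obtain ⟨ε, hε, hsupp⟩ := exists_supp (K' := K) (x := x) (s := s)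
      (fun p _ => mem_nhdsWithin_of_mem_nhds (hK.usc p)) hs
    filter_upwards [hmesh ε hε] with j hj
    refine hsupp j hj (sl x c₀ b₀ j) (fun i hi k _ => ?_)
    unfold sl
    split_ifs with h
    · subst h
      exact (hb₀ _ (pt_ring x j k)).1
    · exact hc₀ _
  have h3 : ∀ᶠ j : ℕ in atTop, ∀ p : Finset (Fin 6), p.card = 2 → (∀ t ∈ p, t ∉ A) →
      ∀ h : ℕ → Fin 6, h (6 * 2 ^ j) = h 0 →
      (∀ k ≤ 6 * 2 ^ j, h k ∈ K (pt x j (2 ^ j) k) ∧ h k ∉ A) →
        ∑ k ∈ Finset.range (6 * 2 ^ j), eps (h k) (h (k + 1)) p = W p := by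
    rw [eventually_all]
    intro p
    rw [eventually_imp_distrib_left]
    intro hp
    rw [eventually_imp_distrib_left]
    intro hpA
    exact hW p hp hpA
  obtain ⟨j, ⟨hj, hj2⟩, hj3⟩ := (((hmesh δ hδ0).and h2).and h3).exists
  have hl : Lb K x δ j (sl x c₀ b₀ j) :=
    sl_Lb (fun p _ => hc₀ p) (fun p hp => (hb₀ p hp).1) hδ0 j
  have hring : ∀ k, sl x c₀ b₀ j (2 ^ j) k ∈ K (pt x j (2 ^ j) k) ∧
      sl x c₀ b₀ j (2 ^ j) k ∉ A := fun k => by
    rw [sl_ring]
    exact hb₀ _ (pt_ring x j k)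
  have hrt : ∀ t ∈ A, ∀ k ≤ 6 * 2 ^ j, sl x c₀ b₀ j (2 ^ j) k ≠ t :=
    fun t ht k _ h => (hring k).2 (h ▸ ht)
  refine ⟨Ch (sl x c₀ b₀ j) (2 ^ j) (6 * 2 ^ j), fun t ht s hts =>
    hδ t ht s hts j hj _ hl (hrt t ht), hj2, fun p hp htp => ?_, fun p hp hpA => ?_⟩
  · obtain ⟨t, htp, htA⟩ := htp
    have e1 := bd_Ch (sl x c₀ b₀ j) (2 ^ j) (6 * 2 ^ j) hl.per hl.cen hp
    rw [Finset.sum_eq_zero (fun k hk => ?_)] at e1
    · exact e1
    · have hk' := Finset.mem_range.1 hk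
      exact eps_zero htp (hrt t htA k hk'.le).symm (hrt t htA (k + 1) hk').symm
  · have e1 := bd_Ch (sl x c₀ b₀ j) (2 ^ j) (6 * 2 ^ j) hl.per hl.cen hp
    rw [hj3 p hp hpA (fun k => sl x c₀ b₀ j (2 ^ j) k) (hl.per _ le_rfl)
      (fun k _ => hring k)] at e1
    exact e1

/-- **the chain of the disc** in the presence of exceptional points -/
theorem Hm.exists_chain (H : Hm K Z f δ₀) (hr : Rg K Z x) {A : Set (Fin 6)}
    (hx : ∀ y, dist y x = 1 → ∃ t ∈ K y, t ∉ A)
    (hz : ∀ z ∈ Z, dist z x = 1 → ∃ i, i ∈ K z ∧ i ∉ f z ∧ i ∉ A)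
    {W : Finset (Fin 6) → ZMod 2}
    (hW : ∀ p : Finset (Fin 6), p.card = 2 → (∀ t ∈ p, t ∉ A) → ∀ᶠ δ in 𝓝[>] (0 : ℝ),
      ∀ᶠ j : ℕ in atTop, ∀ h : ℕ → Fin 6, h (6 * 2 ^ j) = h 0 →
      (∀ k ≤ 6 * 2 ^ j, h k ∈ apx K Z δ (hp K f A) (pt x j (2 ^ j) k) ∧ h k ∉ A) →
        ∑ k ∈ Finset.range (6 * 2 ^ j), eps (h k) (h (k + 1)) p = W p) :
    ∃ φ : Finset (Fin 6) → ZMod 2,
      (∀ t ∈ A, ∀ s : Finset (Fin 6), t ∈ s → φ s = lamH K Z f δ₀ t x s) ∧
      (∀ s : Finset (Fin 6), s.card = 3 →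
        (∀ u ∈ closedBall x 1, ¬ Face K Z f u (s : Set (Fin 6))) → φ s = 0) ∧
      (∀ p : Finset (Fin 6), p.card = 2 → (∃ t ∈ p, t ∈ A) →
        ∑ l ∈ Finset.univ \ p, φ (insert l p) = 0) ∧
      (∀ p : Finset (Fin 6), p.card = 2 → (∀ t ∈ p, t ∉ A) →
        ∑ l ∈ Finset.univ \ p, φ (insert l p) = W p) := by
  have hδ₀ := H.pos
  obtain ⟨δ₂, hδ₂, hδ₂', hd⟩ := H.scale (x := x) (P := fun S F => ∃ i, i ∈ S ∧ i ∉ F ∧ i ∉ A) hz
  have hno : ∀ᶠ δ in 𝓝[>] (0 : ℝ), ∀ s : Finset (Fin 6), s.card = 3 →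
      (∀ u ∈ closedBall x 1, ¬ Face K Z f u (s : Set (Fin 6))) →
      ∀ u ∈ closedBall x 1, ¬ (s : Set (Fin 6)) ⊆ apx K Z δ (hp K f A) u := by
    rw [eventually_all]
    intro s
    rw [eventually_imp_distrib_left]
    intro hs
    rw [eventually_imp_distrib_left]
    intro hF
    obtain ⟨δ₁, hδ₁, h1⟩ := H.noface A (s := (s : Set (Fin 6))) (by
      rw [Set.ncard_coe_finset, hs]; norm_num) hF
    filter_upwards [Ioo_mem_nhdsGT (lt_min hδ₁ (show 0 < δ₀ / 2 by linarith))] with δ hδ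
    exact h1 δ hδ.1 (hδ.2.le.trans (min_le_left _ _)) (hδ.2.le.trans (min_le_right _ _))
  have hWe : ∀ᶠ δ in 𝓝[>] (0 : ℝ), ∀ p : Finset (Fin 6), p.card = 2 → (∀ t ∈ p, t ∉ A) →
      ∀ᶠ j : ℕ in atTop, ∀ h : ℕ → Fin 6, h (6 * 2 ^ j) = h 0 →
      (∀ k ≤ 6 * 2 ^ j, h k ∈ apx K Z δ (hp K f A) (pt x j (2 ^ j) k) ∧ h k ∉ A) →
        ∑ k ∈ Finset.range (6 * 2 ^ j), eps (h k) (h (k + 1)) p = W p := by
    rw [eventually_all]
    intro p
    rw [eventually_imp_distrib_left]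
    intro hp
    rw [eventually_imp_distrib_left]
    intro hpA
    exact hW p hp hpA
  obtain ⟨δ, ⟨hno', hW'⟩, hδ, hδm⟩ := ((hno.and hWe).and (Ioo_mem_nhdsGT
    (lt_min hδ₂ (show 0 < δ₀ / 2 by linarith)))).exists
  have hδ2 : δ ≤ δ₂ := hδm.le.trans (min_le_left _ _)
  have hδ' : δ ≤ δ₀ / 2 := hδm.le.trans (min_le_right _ _)
  have hav : ∀ y, dist y x = 1 → ∃ t ∈ apx K Z δ (hp K f A) y, t ∉ A := by
    intro y hy
    by_cases hn : ∃ z ∈ Z, dist y z ≤ δ
    · obtain ⟨z, hzZ, hyz⟩ := hn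
      exact ⟨hp K f A z, Or.inr ⟨z, hzZ, hyz, rfl⟩,
        pick_avoid (hd z hzZ ⟨y, hy, hyz.trans hδ2⟩)⟩
    · push Not at hn
      rw [apx_far hn]
      exact hx y hy
  have hAv : ∀ t ∈ A, Av (apx K Z δ (hp K f A)) x t ∧ Av K x t :=
    fun t ht => ⟨fun y hy => (hav y hy).imp fun i hi => ⟨hi.1, fun h => hi.2 (h ▸ ht)⟩,
      fun y hy => (hx y hy).imp fun i hi => ⟨hi.1, fun h => hi.2 (h ▸ ht)⟩⟩
  obtain ⟨φ, h1, h2, h3, h4⟩ := exists_chainS (H.nice hr hδ hδ' A) hav hW'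
  refine ⟨φ, fun t ht s hts => ?_, fun s hs hF => h2 s fun u hu => ?_, h3, h4⟩
  · rw [h1 t ht s hts, H.lam_eq hr (hAv t ht).2 hδ hδ' (hAv t ht).1 hts]
  · have h5 := hno' s hs hF u hu
    by_contra hcon
    push Not at hcon
    exact h5 fun t ht => hcon t (by exact_mod_cast ht)

end Vale.Agent.P032.Carr

/-! ### The finite part -/

namespace Vale.Agent.P032.H227

open Finset Vale.Agent.P032.S5.Tab

/-- `sdiff` and complement -/
theorem isCyc_iff {z : Ch} : IsCyc z ↔
    ∀ e : Finset (Fin 6), e.card = 2 → ∑ l ∈ univ \ e, z (insert l e) = 0 := by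
  unfold IsCyc
  simp only [Finset.compl_eq_univ_sdiff]

/-- the number of complementary pairs -/
def q2 (z : Ch) : ZMod 2 :=
  ∑ s ∈ (powersetCard 3 univ).filter (fun s : Finset (Fin 6) => (0 : Fin 6) ∈ s), z s * z sᶜ

theorem mem_trip {s : Finset (Fin 6)} : s ∈ powersetCard 3 (univ : Finset (Fin 6)) ↔ s.card = 3 := by
  rw [mem_powersetCard]; exact ⟨fun h => h.2, fun h => ⟨subset_univ _, h⟩⟩

theorem card_compl3 {s : Finset (Fin 6)} (hs : s.card = 3) : sᶜ.card = 3 := by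
  rw [card_compl, hs]; rfl

/-- the sum over the triples with the colour `b` of a function which is symmetric -/
theorem sum_mem_eq {F : Finset (Fin 6) → ZMod 2} (hF : ∀ s, F sᶜ = F s) (b c : Fin 6) :
    ∑ s ∈ (powersetCard 3 univ).filter (fun s : Finset (Fin 6) => b ∈ s), F s =
      ∑ s ∈ (powersetCard 3 univ).filter (fun s : Finset (Fin 6) => c ∈ s), F s := by
  refine sum_nbij' (fun s => if c ∈ s then s else sᶜ) (fun s => if b ∈ s then s else sᶜ)
    ?_ ?_ ?_ ?_ ?_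
  · intro s hs
    rw [mem_filter, mem_trip] at hs ⊢
    split_ifs with h
    · exact ⟨hs.1, h⟩
    · exact ⟨card_compl3 hs.1, mem_compl.2 h⟩
  · intro s hs
    rw [mem_filter, mem_trip] at hs ⊢
    split_ifs with h
    · exact ⟨hs.1, h⟩
    · exact ⟨card_compl3 hs.1, mem_compl.2 h⟩
  · intro s hs
    rw [mem_filter, mem_trip] at hs
    by_cases h : c ∈ s
    · simp [h, hs.2]
    · simp [h, hs.2]
  · intro s hs
    rw [mem_filter, mem_trip] at hs
    by_cases h : b ∈ s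
    · simp [h, hs.2]
    · simp [h, hs.2]
  · intro s hs
    split_ifs with h
    · rfl
    · rw [hF]

theorem q2_at (z : Ch) (b : Fin 6) :
    q2 z = ∑ s ∈ (powersetCard 3 univ).filter (fun s : Finset (Fin 6) => b ∈ s), z s * z sᶜ :=
  sum_mem_eq (fun s => by rw [compl_compl, mul_comm]) 0 b

/-- **the evenness law**: `φ` a chain of triples with the boundary `W` outside `A` and no boundary at
the pairs which meet `A`, `g` a filling of `W` by triples outside `A` -/
theorem even_law {A : Finset (Fin 6)} (hA : A.Nonempty) {φ g : Ch} {W : Finset (Fin 6) → ZMod 2}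
    (h1 : ∀ p : Finset (Fin 6), p.card = 2 → (∃ t ∈ p, t ∈ A) → ∑ l ∈ univ \ p, φ (insert l p) = 0)
    (h2 : ∀ p : Finset (Fin 6), p.card = 2 → (∀ t ∈ p, t ∉ A) →
      ∑ l ∈ univ \ p, φ (insert l p) = W p)
    (hg : ∀ s : Finset (Fin 6), s.card = 3 → (∃ t ∈ s, t ∈ A) → g s = 0)
    (hgW : ∀ p : Finset (Fin 6), p.card = 2 → (∀ t ∈ p, t ∉ A) →
      ∑ l ∈ univ \ p, g (insert l p) = W p) :
    ∑ s ∈ (powersetCard 3 univ).filter (fun s : Finset (Fin 6) => ∀ t ∈ s, t ∉ A),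
      g s * φ sᶜ = q2 φ := by
  classical
  obtain ⟨b, hb⟩ := hA
  have hcyc : IsCyc (fun s => φ s + g s) := by
    rw [isCyc_iff]
    intro p hp
    rw [sum_add_distrib]
    by_cases hpA : ∀ t ∈ p, t ∉ A
    · rw [h2 p hp hpA, hgW p hp hpA, CharTwo.add_self_eq_zero]
    · push Not at hpA
      rw [h1 p hp hpA, zero_add]
      obtain ⟨t, ht, htA⟩ := hpA
      refine sum_eq_zero fun l hl => hg _ ?_ ⟨t, mem_insert_of_mem ht, htA⟩
      rw [card_insert_of_notMem (by simpa using hl), hp]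
  have hpar : q2 (fun s => φ s + g s) = 0 := parity hcyc
  rw [q2_at _ b] at hpar ⊢
  have hgb : ∀ s ∈ (powersetCard 3 univ).filter (fun s : Finset (Fin 6) => b ∈ s), g s = 0 := by
    intro s hs
    rw [mem_filter, mem_trip] at hs
    exact hg s hs.1 ⟨b, hs.2, hb⟩
  have e1 : ∑ s ∈ (powersetCard 3 univ).filter (fun s : Finset (Fin 6) => b ∈ s),
      (φ s + g s) * (φ sᶜ + g sᶜ) =
      ∑ s ∈ (powersetCard 3 univ).filter (fun s : Finset (Fin 6) => b ∈ s), φ s * φ sᶜ +
      ∑ s ∈ (powersetCard 3 univ).filter (fun s : Finset (Fin 6) => b ∈ s), g sᶜ * φ s := by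
    rw [← sum_add_distrib]
    refine sum_congr rfl fun s hs => ?_
    rw [hgb s hs, add_zero]; ring
  rw [e1] at hpar
  have e2 : ∑ s ∈ (powersetCard 3 univ).filter (fun s : Finset (Fin 6) => b ∈ s), g sᶜ * φ s =
      ∑ s ∈ (powersetCard 3 univ).filter (fun s : Finset (Fin 6) => ∀ t ∈ s, t ∉ A),
        g s * φ sᶜ := by
    rw [← sum_filter_add_sum_filter_not ((powersetCard 3 univ).filter
      (fun s : Finset (Fin 6) => b ∈ s)) (fun s => A ⊆ s)]
    rw [sum_eq_zero (s := (((powersetCard 3 univ).filter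
      (fun s : Finset (Fin 6) => b ∈ s)).filter (fun s => ¬ A ⊆ s)))
      (f := fun s => g sᶜ * φ s), add_zero]
    · refine sum_nbij' (fun s => sᶜ) (fun s => sᶜ) ?_ ?_ ?_ ?_ ?_
      · intro s hs
        rw [mem_filter, mem_filter, mem_trip] at hs
        rw [mem_filter, mem_trip]
        exact ⟨card_compl3 hs.1.1, fun t ht htA => (mem_compl.1 ht) (hs.2 htA)⟩
      · intro s hs
        rw [mem_filter, mem_trip] at hs
        rw [mem_filter, mem_filter, mem_trip]
        exact ⟨⟨card_compl3 hs.1, mem_compl.2 fun h => hs.2 b h hb⟩,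
          fun t ht => mem_compl.2 fun h => hs.2 t h ht⟩
      · intro s _; exact compl_compl s
      · intro s _; exact compl_compl s
      · intro s _
        show g sᶜ * φ s = g sᶜ * φ sᶜᶜ
        rw [compl_compl]
    · intro s hs
      rw [mem_filter, mem_filter, mem_trip] at hs
      obtain ⟨t, htA, hts⟩ := Finset.not_subset.1 hs.2
      rw [hg sᶜ (card_compl3 hs.1.1) ⟨t, mem_compl.2 hts, htA⟩, zero_mul]
  rw [e2] at hpar
  exact (CharTwo.add_eq_zero.1 (by rw [add_comm]; exact hpar))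

/-- no complementary pair -/
theorem q2_zero {φ : Ch} (h : ∀ s : Finset (Fin 6), s.card = 3 → φ s = 0 ∨ φ sᶜ = 0) :
    q2 φ = 0 := by
  refine sum_eq_zero fun s hs => ?_
  rw [mem_filter, mem_trip] at hs
  rcases h s hs.1 with h1 | h1 <;> rw [h1] <;> simp

/-- the number of complementary pairs, as a number -/
theorem q2_card (φ : Ch) : q2 φ = (((powersetCard 3 univ).filter
    (fun s : Finset (Fin 6) => (0 : Fin 6) ∈ s ∧ φ s = 1 ∧ φ sᶜ = 1)).card : ZMod 2) := by
  have key : ∀ x y : ZMod 2, x * y = if x = 1 ∧ y = 1 then 1 else 0 := by decide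
  unfold q2
  rw [card_filter, sum_filter]
  push_cast
  refine sum_congr rfl fun s _ => ?_
  by_cases h0 : (0 : Fin 6) ∈ s
  · simp only [h0, if_true, true_and]
    exact key _ _
  · simp [h0]

/-- the boundary of a boundary -/
theorem bd_bd (φ : Ch) (v : Fin 6) :
    ∑ l ∈ univ \ {v}, ∑ m ∈ univ \ ({v, l} : Finset (Fin 6)), φ (insert m {v, l}) = 0 := by
  rw [sum_sigma']
  refine sum_involution (fun p _ => ⟨p.2, p.1⟩) ?_ ?_ ?_ ?_
  · rintro ⟨l, m⟩ _
    have e : (insert l {v, m} : Finset (Fin 6)) = insert m {v, l} := by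
      ext t; simp only [Finset.mem_insert, Finset.mem_singleton]; tauto
    show φ (insert m {v, l}) + φ (insert l {v, m}) = 0
    rw [e, CharTwo.add_self_eq_zero]
  · rintro ⟨l, m⟩ hp _ hcon
    have h1 : m = l := congrArg Sigma.fst hcon
    rw [mem_sigma] at hp
    have h2 := hp.2
    simp only [Finset.mem_sdiff, Finset.mem_univ, true_and, Finset.mem_insert,
      Finset.mem_singleton, not_or] at h2
    exact h2.2 h1
  · rintro ⟨l, m⟩ hp
    rw [mem_sigma] at hp ⊢
    simp only [Finset.mem_sdiff, Finset.mem_univ, true_and, Finset.mem_insert,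
      Finset.mem_singleton, not_or] at hp ⊢
    exact ⟨hp.2.1, hp.1, Ne.symm hp.2.2⟩
  · rintro ⟨l, m⟩ _
    rfl

/-- the cone filling -/
def cone (u : Fin 6) (A : Finset (Fin 6)) (W : Finset (Fin 6) → ZMod 2) : Ch :=
  fun s => if u ∈ s ∧ ∀ t ∈ s, t ∉ A then W (s.erase u) else 0

theorem cone_spec {A : Finset (Fin 6)} {φ : Ch} {W : Finset (Fin 6) → ZMod 2}
    (h1 : ∀ p : Finset (Fin 6), p.card = 2 → (∃ t ∈ p, t ∈ A) → ∑ l ∈ univ \ p, φ (insert l p) = 0)
    (h2 : ∀ p : Finset (Fin 6), p.card = 2 → (∀ t ∈ p, t ∉ A) →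
      ∑ l ∈ univ \ p, φ (insert l p) = W p) {u : Fin 6} (hu : u ∉ A) :
    (∀ s : Finset (Fin 6), s.card = 3 → (∃ t ∈ s, t ∈ A) → cone u A W s = 0) ∧
      ∀ p : Finset (Fin 6), p.card = 2 → (∀ t ∈ p, t ∉ A) →
        ∑ l ∈ univ \ p, cone u A W (insert l p) = W p := by
  classical
  refine ⟨fun s _ hs => if_neg fun h => ?_, fun p hp hpA => ?_⟩
  · obtain ⟨t, ht, htA⟩ := hs
    exact h.2 t ht htA
  by_cases hup : u ∈ p
  · -- `p = {u, v}`
    have hc : (p.erase u).card = 1 := by rw [card_erase_of_mem hup, hp]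
    obtain ⟨v, hv⟩ := card_eq_one.1 hc
    have hvp : v ∈ p ∧ v ≠ u := by
      have : v ∈ p.erase u := by rw [hv]; simp
      exact ⟨(mem_erase.1 this).2, (mem_erase.1 this).1⟩
    have hpe : p = {v, u} := by
      rw [← insert_erase hup, hv]
      ext t; simp only [Finset.mem_insert, Finset.mem_singleton]; tauto
    have hvA : v ∉ A := hpA v hvp.1
    -- closed at `v`
    have hcl := bd_bd φ v
    have e1 : ∀ l ∈ univ \ ({v} : Finset (Fin 6)),
        ∑ m ∈ univ \ ({v, l} : Finset (Fin 6)), φ (insert m {v, l}) =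
          if l ∈ A then 0 else W {v, l} := by
      intro l hl
      have hlv : l ≠ v := by simpa using hl
      have hcard : ({v, l} : Finset (Fin 6)).card = 2 := card_pair hlv.symm
      split_ifs with hlA
      · exact h1 _ hcard ⟨l, by simp, hlA⟩
      · refine h2 _ hcard fun t ht => ?_
        simp only [Finset.mem_insert, Finset.mem_singleton] at ht
        rcases ht with rfl | rfl
        · exact hvA
        · exact hlA
    rw [sum_congr rfl e1, ← add_sum_erase (univ \ {v}) _ (a := u) (by simp [hvp.2.symm]),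
      if_neg hu] at hcl
    have e2 : ∑ l ∈ univ \ p, cone u A W (insert l p) =
        ∑ l ∈ (univ \ {v}).erase u, if l ∈ A then 0 else W {v, l} := by
      have hset : (univ \ {v}).erase u = univ \ p := by
        rw [hpe]; ext t
        simp only [Finset.mem_erase, Finset.mem_sdiff, Finset.mem_univ, true_and,
          Finset.mem_singleton, Finset.mem_insert, not_or]
        tauto
      rw [hset]
      refine sum_congr rfl fun l hl => ?_
      have hl' : l ∉ p := by simpa using hl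
      unfold cone
      by_cases hlA : l ∈ A
      · rw [if_pos hlA, if_neg]
        rintro ⟨-, h⟩
        exact h l (mem_insert_self _ _) hlA
      · rw [if_neg hlA, if_pos]
        · congr 1
          have hlu : l ≠ u := fun h => hl' (h ▸ hup)
          rw [hpe]
          ext t
          simp only [Finset.mem_erase, Finset.mem_insert, Finset.mem_singleton]
          constructor
          · rintro ⟨h3, h4 | h4 | h4⟩
            · exact Or.inr h4
            · exact Or.inl h4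
            · exact absurd h4 h3
          · rintro (h3 | h3)
            · exact ⟨h3 ▸ hvp.2, Or.inr (Or.inl h3)⟩
            · exact ⟨h3 ▸ hlu, Or.inl h3⟩
        · refine ⟨mem_insert_of_mem hup, fun t ht => ?_⟩
          rcases Finset.mem_insert.1 ht with rfl | ht
          · exact hlA
          · exact hpA t ht
    rw [e2]
    have h3 := CharTwo.add_eq_zero.1 hcl
    rw [← h3, hpe]
  · -- only `l = u` contributes
    rw [sum_eq_single_of_mem u (by simpa using hup)]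
    · unfold cone
      rw [if_pos, erase_insert hup]
      refine ⟨mem_insert_self _ _, fun t ht => ?_⟩
      rcases Finset.mem_insert.1 ht with rfl | ht
      · exact hu
      · exact hpA t ht
    · intro l hl hlu
      unfold cone
      refine if_neg fun h => ?_
      rcases Finset.mem_insert.1 h.1 with h4 | h4
      · exact hlu h4.symm
      · exact hup h4

/-- **the law at a face**: `A = {a, b, c}`, all numbers of changes of the circle odd -/
theorem face_law {A : Finset (Fin 6)} (hA : A.card = 3) {φ : Ch}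
    (h1 : ∀ p : Finset (Fin 6), p.card = 2 → (∃ t ∈ p, t ∈ A) → ∑ l ∈ univ \ p, φ (insert l p) = 0)
    (h2 : ∀ p : Finset (Fin 6), p.card = 2 → (∀ t ∈ p, t ∉ A) →
      ∑ l ∈ univ \ p, φ (insert l p) = 1) : φ A = q2 φ := by
  classical
  have hAn : A.Nonempty := card_pos.1 (by omega)
  rw [← even_law hAn h1 h2 (g := fun s => if s = Aᶜ then 1 else 0) (fun s _ hs => if_neg ?_)
    (fun p hp hpA => ?_)]
  · have e : (powersetCard 3 univ).filter (fun s : Finset (Fin 6) => ∀ t ∈ s, t ∉ A) = {Aᶜ} := by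
      ext s
      rw [mem_filter, mem_trip, Finset.mem_singleton]
      constructor
      · rintro ⟨hs, h⟩
        refine eq_of_subset_of_card_le (fun t ht => mem_compl.2 (h t ht)) ?_
        rw [card_compl3 hA, hs]
      · rintro rfl
        exact ⟨card_compl3 hA, fun t ht => mem_compl.1 ht⟩
    rw [e, sum_singleton, if_pos rfl, one_mul, compl_compl]
  · rintro rfl
    obtain ⟨t, ht, htA⟩ := hs
    exact (mem_compl.1 ht) htA
  · have hsub : p ⊆ Aᶜ := fun t ht => mem_compl.2 (hpA t ht)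
    have hc : (Aᶜ \ p).card = 1 := by
      rw [card_sdiff_of_subset hsub, card_compl3 hA, hp]
    obtain ⟨l, hl⟩ := card_eq_one.1 hc
    have hl1 : l ∈ Aᶜ \ p := by rw [hl]; simp
    rw [mem_sdiff] at hl1
    have hins : insert l p = Aᶜ := by
      refine eq_of_subset_of_card_le (insert_subset hl1.1 hsub) ?_
      rw [card_compl3 hA, card_insert_of_notMem hl1.2, hp]
    rw [sum_eq_single_of_mem l (by simpa using hl1.2)]
    · rw [if_pos hins]
    · intro m hm hml
      refine if_neg fun h => hml ?_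
      have h3 : m ∈ Aᶜ \ p := by
        rw [mem_sdiff, ← h]
        exact ⟨mem_insert_self _ _, by simpa using hm⟩
      rw [hl] at h3
      simpa using h3

/-- the triples outside `{b, m}` -/
theorem trip_out {b m c d e g : Fin 6} (hnd : [b, m, c, d, e, g].Nodup) :
    (powersetCard 3 univ).filter
      (fun s : Finset (Fin 6) => ∀ t ∈ s, t ∉ ({b, m} : Finset (Fin 6))) =
      {{c, d, e}, {c, d, g}, {c, e, g}, {d, e, g}} := by
  revert hnd
  revert b m c d e g
  decide +kernel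

theorem trip_ne {b m c d e g : Fin 6} (hnd : [b, m, c, d, e, g].Nodup) :
    (({c, d, e} : Finset (Fin 6)) ≠ {c, d, g} ∧ ({c, d, e} : Finset (Fin 6)) ≠ {c, e, g} ∧
      ({c, d, e} : Finset (Fin 6)) ≠ {d, e, g}) ∧ (({c, d, g} : Finset (Fin 6)) ≠ {c, e, g} ∧
      ({c, d, g} : Finset (Fin 6)) ≠ {d, e, g}) ∧ ({c, e, g} : Finset (Fin 6)) ≠ {d, e, g} := by
  revert hnd
  revert b m c d e g
  decide +kernel

theorem trip_compl {b m c d e g : Fin 6} (hnd : [b, m, c, d, e, g].Nodup) :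
    ({c, d, e} : Finset (Fin 6))ᶜ = {b, m, g} := by
  revert hnd
  revert b m c d e g
  decide +kernel

/-- **the law at a border point**: `A = {b, m}`, the other colours `c, d, e, g` -/
theorem border_law {b m c d e g : Fin 6} (hnd : [b, m, c, d, e, g].Nodup) {φ : Ch}
    {W : Finset (Fin 6) → ZMod 2}
    (h1 : ∀ p : Finset (Fin 6), p.card = 2 → (∃ t ∈ p, t ∈ ({b, m} : Finset (Fin 6))) →
      ∑ l ∈ univ \ p, φ (insert l p) = 0)
    (h2 : ∀ p : Finset (Fin 6), p.card = 2 → (∀ t ∈ p, t ∉ ({b, m} : Finset (Fin 6))) →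
      ∑ l ∈ univ \ p, φ (insert l p) = W p) :
    W {d, e} * φ {b, m, g} + W {d, g} * φ {b, m, e} + W {e, g} * φ {b, m, d} = q2 φ := by
  classical
  have hnd' := hnd
  simp only [List.nodup_cons, List.mem_cons, List.not_mem_nil, or_false, not_or, List.nodup_nil,
    and_true, not_false_eq_true] at hnd'
  obtain ⟨⟨bm, bc, bd, be, bg⟩, ⟨mc, md, me, mg⟩, ⟨cd, ce, cg⟩, ⟨de, dg⟩, eg⟩ := hnd'
  have hall : ∀ t : Fin 6, t = b ∨ t = m ∨ t = c ∨ t = d ∨ t = e ∨ t = g := by
    intro t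
    have h3 : ({b, m, c, d, e, g} : Finset (Fin 6)) = univ := by
      apply eq_univ_of_card
      have := List.toFinset_card_of_nodup hnd
      simpa using this
    have h4 : t ∈ ({b, m, c, d, e, g} : Finset (Fin 6)) := by rw [h3]; simp
    simpa using h4
  have hcA : c ∉ ({b, m} : Finset (Fin 6)) := by
    simp only [Finset.mem_insert, Finset.mem_singleton, not_or]
    exact ⟨(Ne.symm bc), (Ne.symm mc)⟩
  obtain ⟨k1, k2⟩ := cone_spec h1 h2 hcA
  rw [← even_law (insert_nonempty b {m}) h1 h2 k1 k2]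
  -- the triples outside `{b, m}` with `c`
  have hv : ∀ s : Finset (Fin 6), c ∉ s → cone c {b, m} W s = 0 := fun s hs =>
    if_neg fun h => hs h.1
  have e0 := trip_out hnd
  obtain ⟨⟨n1, n2, n3⟩, ⟨n4, n5⟩, n6⟩ := trip_ne hnd
  rw [e0, sum_insert (by simp [n1, n2, n3]), sum_insert (by simp [n4, n5]),
    sum_insert (by simp [n6]), sum_singleton, hv {d, e, g} (by simp [cd, ce, cg]), zero_mul,
    add_zero]
  have v1 : ∀ p q : Fin 6, p ≠ c → q ≠ c → p ≠ b → p ≠ m → q ≠ b → q ≠ m →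
      cone c {b, m} W {c, p, q} = W {p, q} := by
    intro p q pc qc pb pm qb qm
    unfold cone
    rw [if_pos, erase_insert (by
      simp only [Finset.mem_insert, Finset.mem_singleton, not_or]; exact ⟨pc.symm, qc.symm⟩)]
    refine ⟨by simp, fun t ht => ?_⟩
    simp only [Finset.mem_insert, Finset.mem_singleton] at ht
    simp only [Finset.mem_insert, Finset.mem_singleton, not_or]
    rcases ht with rfl | rfl | rfl
    · exact ⟨(Ne.symm bc), (Ne.symm mc)⟩
    · exact ⟨pb, pm⟩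
    · exact ⟨qb, qm⟩
  rw [v1 d e (Ne.symm cd) (Ne.symm ce) (Ne.symm bd) (Ne.symm md) (Ne.symm be) (Ne.symm me),
    v1 d g (Ne.symm cd) (Ne.symm cg) (Ne.symm bd) (Ne.symm md) (Ne.symm bg) (Ne.symm mg),
    v1 e g (Ne.symm ce) (Ne.symm cg) (Ne.symm be) (Ne.symm me) (Ne.symm bg) (Ne.symm mg),
    trip_compl hnd, trip_compl (c := c) (d := d) (e := g) (g := e) (b := b) (m := m) ?_,
    trip_compl (c := c) (d := e) (e := g) (g := d) (b := b) (m := m) ?_]
  · ring
  · simp only [List.nodup_cons, List.mem_cons, List.not_mem_nil, or_false, not_or, List.nodup_nil,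
      and_true, not_false_eq_true]
    exact ⟨⟨bm, bc, be, bg, bd⟩, ⟨mc, me, mg, md⟩, ⟨ce, cg, cd⟩, ⟨eg, Ne.symm de⟩, Ne.symm dg⟩
  · simp only [List.nodup_cons, List.mem_cons, List.not_mem_nil, or_false, not_or, List.nodup_nil,
      and_true, not_false_eq_true]
    exact ⟨⟨bm, bc, bd, bg, be⟩, ⟨mc, md, mg, me⟩, ⟨cd, cg, ce⟩, ⟨dg, de⟩, Ne.symm eg⟩

end Vale.Agent.P032.H227
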