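import Vale.Agent.P032.H227.Even

/-!
# P032: the evenness law for the states `lamH`

`Hm.face_even` : `x` a face `S` (three colours which can be avoided on the circle) with odd numbers
of changes on the circle: the chain `φ` of the disc and `lamH t x S = q2 φ` for `t ∈ S`.
`Hm.border_even` : `x` with two colours `b, m` which can be avoided on the circle, `W p` the number of
`p`-changes of the circle for the pairs `p` of the other colours `c, d, e, g`: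
`W {d,e} n(bmg) + W {d,g} n(bme) + W {e,g} n(bmd) = q2 φ`, with `n(bml) = lamH b x {b, m, l}`; and
`n(bmc) + n(bmd) + n(bme) + n(bmg) = 0`, `n(bde) + n(mde) + φ {c,d,e} + φ {d,e,g} = W {d,e}` etc.
The forms with `0` on the right: no two complementary faces in the closed disc.
-/

noncomputable section

namespace Vale.Agent.P032.Carr

open Set Filter Topology Metric Vale.Agent.P032.S5 Vale.Agent.P032.H227

variable {K : ℂ → Set (Fin 6)} {Z : Set ℂ} {f : ℂ → Set (Fin 6)} {δ δ₀ : ℝ} {x : ℂ} {a : Fin 6}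

/-- no two complementary faces in the disc -/
theorem q2_zero_of {φ : Finset (Fin 6) → ZMod 2}
    (h : ∀ s : Finset (Fin 6), s.card = 3 →
      (∀ u ∈ closedBall x 1, ¬ Face K Z f u (s : Set (Fin 6))) → φ s = 0)
    (hq : ∀ s : Finset (Fin 6), s.card = 3 →
      (∀ u ∈ closedBall x 1, ¬ Face K Z f u (s : Set (Fin 6))) ∨
      (∀ u ∈ closedBall x 1, ¬ Face K Z f u ((sᶜ : Finset (Fin 6)) : Set (Fin 6)))) : q2 φ = 0 := by
  refine q2_zero fun s hs => ?_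
  rcases hq s hs with h1 | h1
  · exact Or.inl (h s hs h1)
  · exact Or.inr (h sᶜ (card_compl3 hs) h1)

/-- **the law at a face** -/
theorem Hm.face_even (H : Hm K Z f δ₀) (hr : Rg K Z x) {S : Finset (Fin 6)} (hS : S.card = 3)
    (hx : ∀ y, dist y x = 1 → ∃ t ∈ K y, t ∉ (S : Set (Fin 6)))
    (hz : ∀ z ∈ Z, dist z x = 1 → ∃ i, i ∈ K z ∧ i ∉ f z ∧ i ∉ (S : Set (Fin 6)))
    (hW : ∀ p : Finset (Fin 6), p.card = 2 → (∀ t ∈ p, t ∉ (S : Set (Fin 6))) →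
      ∀ᶠ δ in 𝓝[>] (0 : ℝ), ∀ᶠ j : ℕ in atTop, ∀ h : ℕ → Fin 6, h (6 * 2 ^ j) = h 0 →
      (∀ k ≤ 6 * 2 ^ j, h k ∈ apx K Z δ (hp K f (S : Set (Fin 6))) (pt x j (2 ^ j) k) ∧
        h k ∉ (S : Set (Fin 6))) →
        ∑ k ∈ Finset.range (6 * 2 ^ j), eps (h k) (h (k + 1)) p = 1) :
    ∃ φ : Finset (Fin 6) → ZMod 2,
      (∀ t ∈ S, ∀ s : Finset (Fin 6), t ∈ s → φ s = lamH K Z f δ₀ t x s) ∧
      (∀ s : Finset (Fin 6), s.card = 3 →
        (∀ u ∈ closedBall x 1, ¬ Face K Z f u (s : Set (Fin 6))) → φ s = 0) ∧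
      (∀ p : Finset (Fin 6), p.card = 2 → (∃ t ∈ p, t ∈ S) →
        ∑ l ∈ Finset.univ \ p, φ (insert l p) = 0) ∧
      (∀ p : Finset (Fin 6), p.card = 2 → (∀ t ∈ p, t ∉ S) →
        ∑ l ∈ Finset.univ \ p, φ (insert l p) = 1) ∧
      (∀ t ∈ S, lamH K Z f δ₀ t x S = q2 φ) := by
  obtain ⟨φ, h1, h2, h3, h4⟩ := H.exists_chain hr hx hz (W := fun _ => 1) hW
  simp only [Finset.mem_coe] at h1 h3 h4
  refine ⟨φ, h1, h2, h3, h4, fun t ht => ?_⟩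
  rw [← h1 t ht S ht]
  exact face_law hS h3 h4

/-- **the law at a face, without complementary faces in the disc** -/
theorem Hm.face_zero (H : Hm K Z f δ₀) (hr : Rg K Z x) {S : Finset (Fin 6)} (hS : S.card = 3)
    (hx : ∀ y, dist y x = 1 → ∃ t ∈ K y, t ∉ (S : Set (Fin 6)))
    (hz : ∀ z ∈ Z, dist z x = 1 → ∃ i, i ∈ K z ∧ i ∉ f z ∧ i ∉ (S : Set (Fin 6)))
    (hW : ∀ p : Finset (Fin 6), p.card = 2 → (∀ t ∈ p, t ∉ (S : Set (Fin 6))) →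
      ∀ᶠ δ in 𝓝[>] (0 : ℝ), ∀ᶠ j : ℕ in atTop, ∀ h : ℕ → Fin 6, h (6 * 2 ^ j) = h 0 →
      (∀ k ≤ 6 * 2 ^ j, h k ∈ apx K Z δ (hp K f (S : Set (Fin 6))) (pt x j (2 ^ j) k) ∧
        h k ∉ (S : Set (Fin 6))) →
        ∑ k ∈ Finset.range (6 * 2 ^ j), eps (h k) (h (k + 1)) p = 1)
    (hq : ∀ s : Finset (Fin 6), s.card = 3 →
      (∀ u ∈ closedBall x 1, ¬ Face K Z f u (s : Set (Fin 6))) ∨
      (∀ u ∈ closedBall x 1, ¬ Face K Z f u ((sᶜ : Finset (Fin 6)) : Set (Fin 6))))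
    {t : Fin 6} (ht : t ∈ S) : lamH K Z f δ₀ t x S = 0 := by
  obtain ⟨φ, -, h2, -, -, h5⟩ := H.face_even hr hS hx hz hW
  rw [h5 t ht]
  exact q2_zero_of h2 hq

/-- **the law at a border point** -/
theorem Hm.border_even (H : Hm K Z f δ₀) (hr : Rg K Z x) {b m c d e g : Fin 6}
    (hnd : [b, m, c, d, e, g].Nodup)
    (hx : ∀ y, dist y x = 1 → ∃ t ∈ K y, t ∉ ({b, m} : Set (Fin 6)))
    (hz : ∀ z ∈ Z, dist z x = 1 → ∃ i, i ∈ K z ∧ i ∉ f z ∧ i ∉ ({b, m} : Set (Fin 6)))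
    {W : Finset (Fin 6) → ZMod 2}
    (hW : ∀ p : Finset (Fin 6), p.card = 2 → (∀ t ∈ p, t ∉ ({b, m} : Set (Fin 6))) →
      ∀ᶠ δ in 𝓝[>] (0 : ℝ), ∀ᶠ j : ℕ in atTop, ∀ h : ℕ → Fin 6, h (6 * 2 ^ j) = h 0 →
      (∀ k ≤ 6 * 2 ^ j, h k ∈ apx K Z δ (hp K f ({b, m} : Set (Fin 6))) (pt x j (2 ^ j) k) ∧
        h k ∉ ({b, m} : Set (Fin 6))) →
        ∑ k ∈ Finset.range (6 * 2 ^ j), eps (h k) (h (k + 1)) p = W p) :
    ∃ φ : Finset (Fin 6) → ZMod 2,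
      (∀ s : Finset (Fin 6), b ∈ s → φ s = lamH K Z f δ₀ b x s) ∧
      (∀ s : Finset (Fin 6), m ∈ s → φ s = lamH K Z f δ₀ m x s) ∧
      (∀ s : Finset (Fin 6), s.card = 3 →
        (∀ u ∈ closedBall x 1, ¬ Face K Z f u (s : Set (Fin 6))) → φ s = 0) ∧
      (∀ p : Finset (Fin 6), p.card = 2 → (b ∈ p ∨ m ∈ p) →
        ∑ l ∈ Finset.univ \ p, φ (insert l p) = 0) ∧
      (∀ p : Finset (Fin 6), p.card = 2 → b ∉ p → m ∉ p →
        ∑ l ∈ Finset.univ \ p, φ (insert l p) = W p) ∧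
      W {d, e} * lamH K Z f δ₀ b x {b, m, g} + W {d, g} * lamH K Z f δ₀ b x {b, m, e} +
        W {e, g} * lamH K Z f δ₀ b x {b, m, d} = q2 φ := by
  obtain ⟨φ, h1, h2, h3, h4⟩ := H.exists_chain hr hx hz hW
  have e3 : ∀ p : Finset (Fin 6), p.card = 2 → (∃ t ∈ p, t ∈ ({b, m} : Finset (Fin 6))) →
      ∑ l ∈ Finset.univ \ p, φ (insert l p) = 0 := fun p hp ht => h3 p hp (by
    obtain ⟨t, ht1, ht2⟩ := ht
    exact ⟨t, ht1, by simpa using ht2⟩)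
  have e4 : ∀ p : Finset (Fin 6), p.card = 2 → (∀ t ∈ p, t ∉ ({b, m} : Finset (Fin 6))) →
      ∑ l ∈ Finset.univ \ p, φ (insert l p) = W p := fun p hp ht => h4 p hp fun t ht1 ht2 =>
    ht t ht1 (by simpa using ht2)
  refine ⟨φ, fun s hs => h1 b (by simp) s hs, fun s hs => h1 m (by simp) s hs, h2,
    fun p hp ht => ?_, fun p hp hb hm => ?_, ?_⟩
  · rcases ht with ht | ht
    · exact e3 p hp ⟨b, ht, by simp⟩
    · exact e3 p hp ⟨m, ht, by simp⟩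
  · refine e4 p hp fun t ht ht2 => ?_
    simp only [Finset.mem_insert, Finset.mem_singleton] at ht2
    rcases ht2 with rfl | rfl
    · exact hb ht
    · exact hm ht
  · have h5 := border_law hnd e3 e4
    rw [← h1 b (by simp) {b, m, g} (by simp), ← h1 b (by simp) {b, m, e} (by simp),
      ← h1 b (by simp) {b, m, d} (by simp)]
    exact h5

/-- **the law at a border point, without complementary faces in the disc** -/
theorem Hm.border_zero (H : Hm K Z f δ₀) (hr : Rg K Z x) {b m c d e g : Fin 6}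
    (hnd : [b, m, c, d, e, g].Nodup)
    (hx : ∀ y, dist y x = 1 → ∃ t ∈ K y, t ∉ ({b, m} : Set (Fin 6)))
    (hz : ∀ z ∈ Z, dist z x = 1 → ∃ i, i ∈ K z ∧ i ∉ f z ∧ i ∉ ({b, m} : Set (Fin 6)))
    {W : Finset (Fin 6) → ZMod 2}
    (hW : ∀ p : Finset (Fin 6), p.card = 2 → (∀ t ∈ p, t ∉ ({b, m} : Set (Fin 6))) →
      ∀ᶠ δ in 𝓝[>] (0 : ℝ), ∀ᶠ j : ℕ in atTop, ∀ h : ℕ → Fin 6, h (6 * 2 ^ j) = h 0 →
      (∀ k ≤ 6 * 2 ^ j, h k ∈ apx K Z δ (hp K f ({b, m} : Set (Fin 6))) (pt x j (2 ^ j) k) ∧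
        h k ∉ ({b, m} : Set (Fin 6))) →
        ∑ k ∈ Finset.range (6 * 2 ^ j), eps (h k) (h (k + 1)) p = W p)
    (hq : ∀ s : Finset (Fin 6), s.card = 3 →
      (∀ u ∈ closedBall x 1, ¬ Face K Z f u (s : Set (Fin 6))) ∨
      (∀ u ∈ closedBall x 1, ¬ Face K Z f u ((sᶜ : Finset (Fin 6)) : Set (Fin 6)))) :
    W {d, e} * lamH K Z f δ₀ b x {b, m, g} + W {d, g} * lamH K Z f δ₀ b x {b, m, e} +
      W {e, g} * lamH K Z f δ₀ b x {b, m, d} = 0 := by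
  obtain ⟨φ, -, -, h2, -, -, h5⟩ := H.border_even hr hnd hx hz hW
  rw [h5]
  exact q2_zero_of h2 hq

end Vale.Agent.P032.Carr
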